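import Vale.Agent.P235.H684.Harm
import Vale.Agent.P235.H263.Target

set_option linter.all false

/-!
# From the bag laws and the couplings along the paths to the random cut of all vertices
-/

namespace Vale.Agent.P235.H684

open Finset Function

variable {n : ℕ}

/-- the tree of an elimination form -/
noncomputable def toElim {k : ℕ} {A : Fin n → Finset (Fin n)} (hA : H263.IsElim k A) :
    Elim n where
  A := A
  par := H263.par A
  lt := hA.lt
  par_le := hA.par_le
  root := by
    intro t h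
    by_contra hne
    have hne' : (A t).Nonempty := Finset.nonempty_iff_ne_empty.2 hne
    have h1 := hA.lt t _ (H263.par_mem hne')
    rw [h] at h1
    exact lt_irrefl _ h1
  sub := hA.sub_par

/-! ### the last common ancestor -/

section two

variable {E : Elim n}

/-- the path from the last common ancestor of `x` and `y` to `x` -/
theorem exists_path {x y r : Fin n} (hx : E.Desc r x) (hy : E.Desc r y) :
    ∃ t, E.Desc t x ∧ E.Desc t y ∧ (∀ s, E.Desc s x → E.Desc s y → s ≤ t) ∧
      (x = t ∨ ∃ (q : ℕ → Fin n) (N : ℕ), Path E q N ∧ q 0 = t ∧ q N = x ∧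
        y ∈ E.Out (q 1)) := by
  classical
  obtain ⟨m0, hm0⟩ := hx
  have hex : ∃ j, E.Desc (E.par^[j] x) y := ⟨m0, by rw [hm0]; exact hy⟩
  set j := Nat.find hex with hj
  have hjs : E.Desc (E.par^[j] x) y := Nat.find_spec hex
  have hjm : ∀ m, E.Desc (E.par^[m] x) y → j ≤ m := fun m hm => Nat.find_min' hex hm
  refine ⟨E.par^[j] x, ⟨j, rfl⟩, hjs, ?_, ?_⟩
  · rintro s ⟨m, hm⟩ hs
    have h1 : j ≤ m := hjm m (by rw [hm]; exact hs)
    have h2 : E.Desc s (E.par^[j] x) := by
      refine ⟨m - j, ?_⟩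
      rw [← Function.iterate_add_apply, Nat.sub_add_cancel h1, hm]
    exact h2.le
  · by_cases hj0 : j = 0
    · left
      rw [hj0]
      rfl
    · right
      have hout : y ∈ E.Out (E.par^[j - 1] x) := by
        intro h
        have := hjm _ h
        omega
      refine ⟨fun i => E.par^[j - i] x, j, ⟨by omega, ?_, ?_⟩, ?_, ?_, hout⟩
      · intro i hi
        have e : j - i = (j - (i + 1)) + 1 := by omega
        show E.par (E.par^[j - (i + 1)] x) = E.par^[j - i] x
        rw [e, Function.iterate_succ_apply']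
      · intro i hi h
        have h' : E.par^[j - i] x = E.par^[j - (i + 1)] x := h
        have e : j - i = (j - (i + 1)) + 1 := by omega
        rw [e, Function.iterate_succ_apply'] at h'
        have h3 : ∀ l, E.par^[l + (j - (i + 1))] x = E.par^[j - (i + 1)] x := by
          intro l
          rw [Function.iterate_add_apply]
          exact Function.iterate_fixed h' l
        have h4 := h3 i
        have h5 := h3 (i + 1)
        have e4 : i + (j - (i + 1)) = j - 1 := by omega
        have e5 : i + 1 + (j - (i + 1)) = j := by omega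
        rw [e4] at h4
        rw [e5] at h5
        apply hout
        rw [h4, ← h5]
        exact hjs
      · show E.par^[j - 0] x = _
        rw [Nat.sub_zero]
      · show E.par^[j - j] x = x
        rw [Nat.sub_self]
        rfl

end two

/-! ### The end -/

/-- separation indicator -/
noncomputable def dif (i j : Fin n) (X : Fin n → Bool) : ℝ := if X i = X j then 0 else 1

theorem dif_tri (i j l : Fin n) (X : Fin n → Bool) : dif i l X ≤ dif i j X + dif j l X := by
  unfold dif
  cases X i <;> cases X j <;> cases X l <;> simp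

theorem dif_symm (i j : Fin n) (X : Fin n → Bool) : dif i j X = dif j i X := by
  unfold dif
  cases X i <;> cases X j <;> simp

theorem dif_self (i : Fin n) (X : Fin n → Bool) : dif i i X = 0 := by
  unfold dif
  simp

theorem dif_nonneg (i j : Fin n) (X : Fin n → Bool) : 0 ≤ dif i j X := by
  unfold dif
  split_ifs <;> norm_num

theorem dif_dep (i j : Fin n) {D : Set (Fin n)} (hi : i ∈ D) (hj : j ∈ D) :
    DepOn D (dif i j) := by
  intro X Y h
  unfold dif
  rw [h i hi, h j hj]

theorem KK_pos (N : ℕ) : 0 < H254.KK N := by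
  unfold H254.KK
  positivity

/-- What the local part of the proof has to deliver for one metric in elimination form. -/
def Local {k : ℕ} {A : Fin n → Finset (Fin n)} (hA : H263.IsElim k A) (d : Fin n → Fin n → ℝ)
    (κ C1 : ℝ) : Prop :=
  ∃ (μ : Fin n → (Fin n → Bool) → ℝ) (Λ : ℝ), 0 < Λ ∧ (∀ t, IsLaw (μ t)) ∧
    Cons (toElim hA) μ ∧
    (∀ t, ∀ p ∈ (toElim hA).B t, ∀ p' ∈ (toElim hA).B t,
      κ * d p p' ≤ Λ * Ex (μ t) (dif p p') ∧ Λ * Ex (μ t) (dif p p') ≤ d p p') ∧
    (∀ (q : ℕ → Fin n) (N : ℕ), Path (toElim hA) q N →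
      ∀ r : ℝ, (∀ a ∈ (toElim hA).B (q 0), r ≤ d (q N) a) →
      ∃ (c : ℝ) (Ω : Type) (_ : Fintype Ω) (w : Ω → ℝ) (X : ℕ → Ω → (Fin n → Bool)),
        Coup (toElim hA) μ q N c w X ∧ r ≤ C1 * (Λ * c))

/-- the constant of the end -/
noncomputable def cEnd (k : ℕ) (κ C1 : ℝ) : ℝ :=
  min (κ / 2) (κ / 8 / (C1 * H254.KK (2 ^ (k + 1))))

theorem cEnd_pos {k : ℕ} {κ C1 : ℝ} (hκ : 0 < κ) (hC : 0 < C1) : 0 < cEnd k κ C1 := by
  unfold cEnd
  have := KK_pos (2 ^ (k + 1))
  exact lt_min (by positivity) (by positivity)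

theorem end_cut {k : ℕ} {A : Fin n → Finset (Fin n)} (hn : 0 < n) (hA : H263.IsElim k A)
    {d : Fin n → Fin n → ℝ} (hd : H263.IsSep A d) {κ C1 : ℝ} (hκ : 0 < κ) (hκ1 : κ ≤ 1)
    (hC : 0 < C1) (H : Local hA d κ C1) :
    ∃ (Ω : Type) (_ : Fintype Ω) (P : Ω → ℝ) (X : Ω → Fin n → Bool), (∀ σ, 0 ≤ P σ) ∧
      (∀ j, ∀ i ∈ A j, ∑ σ, P σ * (if X σ i = X σ j then 0 else 1) ≤ d i j) ∧
      ∀ i j, cEnd k κ C1 * d i j ≤ ∑ σ, P σ * (if X σ i = X σ j then 0 else 1) := by
  classical
  obtain ⟨μ, Λ, hΛ, hμ, hc, hbag, hcoup⟩ := H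
  have hK := KK_ker (E := toElim hA) hμ
  set ρ : Fin n → Fin n → ℝ := fun i j => Λ * PM (KK (toElim hA) μ) (dif i j) with hρ
  have hsum : ∀ i j, ∑ σ : Fin n → Bool, (Λ * PW (KK (toElim hA) μ) σ) *
      (if σ i = σ j then 0 else 1) = ρ i j := by
    intro i j
    rw [hρ]
    dsimp only
    rw [PM_eq_Ex]
    unfold Ex dif
    rw [Finset.mul_sum]
    exact Finset.sum_congr rfl fun σ _ => by ring
  have hρ0 : ∀ i, ρ i i = 0 := by
    intro i
    have e : (dif i i : (Fin n → Bool) → ℝ) = fun _ => 0 := by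
      funext X; exact dif_self i X
    rw [hρ]
    dsimp only
    rw [e, PM_const hK, mul_zero]
  have hρs : ∀ i j, ρ i j = ρ j i := by
    intro i j
    have e : (dif i j : (Fin n → Bool) → ℝ) = dif j i := by
      funext X; exact dif_symm i j X
    rw [hρ]
    dsimp only
    rw [e]
  have hρt : ∀ i j l, ρ i l ≤ ρ i j + ρ j l := by
    intro i j l
    rw [hρ]
    dsimp only
    rw [← mul_add, ← PM_add]
    exact mul_le_mul_of_nonneg_left (PM_mono hK fun X => dif_tri i j l X) hΛ.le
  have hρb : ∀ t, ∀ p ∈ (toElim hA).B t, ∀ p' ∈ (toElim hA).B t,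
      κ * d p p' ≤ ρ p p' ∧ ρ p p' ≤ d p p' := by
    intro t p hp p' hp'
    have h1 := PM_bag hμ hc t (h := dif p p') (dif_dep p p' (Finset.mem_coe.2 hp)
      (Finset.mem_coe.2 hp'))
    rw [hρ]
    dsimp only
    rw [h1]
    exact hbag t p hp p' hp'
  -- nonexpanding everywhere
  have hle' : ∀ (m : ℕ) (i j : Fin n), (i : ℕ) < m → (j : ℕ) < m → ρ i j ≤ d i j := by
    intro m
    induction m with
    | zero => intro i j hi; omega
    | succ m ih =>
      have key : ∀ i j : Fin n, (i : ℕ) < m + 1 → j < i → ρ i j ≤ d i j := by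
        intro i j hi hji
        obtain ⟨a, ha, h1⟩ := hd.sep i i j (H263.Sub.refl i) fun h =>
          absurd (hA.sub_le h) (not_le.2 hji)
        have hai : a < i := hA.lt i a ha
        have h2 : ρ i a ≤ d i a := (hρb i i (Finset.mem_insert_self _ _) a
          (Finset.mem_insert_of_mem ha)).2
        have h3 : ρ a j ≤ d a j := ih a j (by rw [Fin.lt_def] at hai; omega)
          (by rw [Fin.lt_def] at hji; omega)
        have h4 := hρt i a j
        linarith
      intro i j hi hj
      rcases lt_trichotomy i j with h | h | h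
      · rw [hρs, hd.symm]
        exact key j i hj h
      · rw [h, hρ0, hd.self]
      · exact key i j hi h
  have hle : ∀ i j : Fin n, ρ i j ≤ d i j := fun i j => hle' n i j i.2 j.2
  refine ⟨Fin n → Bool, inferInstance, fun σ => Λ * PW (KK (toElim hA) μ) σ, fun σ => σ,
    fun σ => mul_nonneg hΛ.le ((PW_isLaw hK).nonneg σ), ?_, ?_⟩
  · intro j i _
    rw [hsum]
    exact hle i j
  · intro x y
    rw [hsum]
    have hd0 := hd.nonneg x y
    -- the root
    have hroot : ∀ v : Fin n, (toElim hA).Desc ⟨0, hn⟩ v := by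
      intro v
      induction v using WellFoundedLT.induction with
      | ind v ih =>
        by_cases hv : (v : ℕ) = 0
        · have : v = ⟨0, hn⟩ := Fin.ext hv
          rw [this]
          exact Elim.Desc.refl _ _
        · exact Elim.Desc.par (ih _ (hA.par_lt (Nat.pos_of_ne_zero hv)))
    obtain ⟨t, hx1, hx2, hx3, hx4⟩ := exists_path (hroot x) (hroot y)
    obtain ⟨t', hy1, hy2, hy3, hy4⟩ := exists_path (hroot y) (hroot x)
    have htt : t' = t := le_antisymm (hx3 t' hy2 hy1) (hy3 t hx2 hx1)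
    rw [htt] at hy4
    have hCK : 0 < C1 * H254.KK (2 ^ (k + 1)) := mul_pos hC (KK_pos _)
    -- a far vertex is separated
    have far : ∀ u v : Fin n, ρ u v = ρ x y → d u v = d x y →
        (u = t ∨ ∃ (q : ℕ → Fin n) (N : ℕ), Path (toElim hA) q N ∧ q 0 = t ∧ q N = u ∧
          v ∈ (toElim hA).Out (q 1)) →
        (∀ a ∈ (toElim hA).B t, κ / 8 * d x y ≤ d u a) → cEnd k κ C1 * d x y ≤ ρ x y := by
      intro u v huv hduv hor hfar
      have hc1 : cEnd k κ C1 ≤ κ / 8 / (C1 * H254.KK (2 ^ (k + 1))) := min_le_right _ _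
      rcases hor with h | ⟨q, N, hq, hq0, hqN, hv⟩
      · have h1 := hfar t (Finset.mem_insert_self _ _)
        rw [h, hd.self] at h1
        have h2 : d x y ≤ 0 := by
          by_contra hcon
          have : 0 < κ / 8 * d x y := mul_pos (by linarith) (not_le.1 hcon)
          linarith
        have h3 : d x y = 0 := le_antisymm h2 hd0
        rw [h3, mul_zero, hρ]
        exact mul_nonneg hΛ.le (PM_nonneg hK fun X => dif_nonneg _ _ X)
      · obtain ⟨c, Ω, hΩ, w, X, hX, hr⟩ := hcoup q N hq (κ / 8 * d x y) (by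
          rw [hq0, hqN]; exact hfar)
        have h1 := far_pair hμ hc hA.card hq hX hv
        rw [hqN] at h1
        have h2 : PM (KK (toElim hA) μ) (fun X => if X u = X v then 0 else 1) =
            PM (KK (toElim hA) μ) (dif u v) := rfl
        rw [h2] at h1
        have h3 : Λ * c ≤ H254.KK (2 ^ (k + 1)) * ρ x y := by
          rw [← huv, hρ]
          dsimp only
          have := mul_le_mul_of_nonneg_left h1 hΛ.le
          linarith
        have h4 : κ / 8 * d x y ≤ C1 * H254.KK (2 ^ (k + 1)) * ρ x y := by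
          refine hr.trans ?_
          rw [mul_assoc]
          exact mul_le_mul_of_nonneg_left h3 hC.le
        refine (mul_le_mul_of_nonneg_right hc1 hd0).trans ?_
        rw [div_mul_eq_mul_div, div_le_iff₀ hCK]
        linarith
    by_cases hfx : ∀ a ∈ (toElim hA).B t, κ / 8 * d x y ≤ d x a
    · exact far x y rfl rfl hx4 hfx
    by_cases hfy : ∀ a ∈ (toElim hA).B t, κ / 8 * d x y ≤ d y a
    · exact far y x (hρs y x) (hd.symm y x) hy4 hfy
    simp only [not_forall, not_le] at hfx hfy
    obtain ⟨a, ha, hxa⟩ := hfx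
    obtain ⟨b, hb, hyb⟩ := hfy
    have hc2 : cEnd k κ C1 ≤ κ / 2 := min_le_left _ _
    refine (mul_le_mul_of_nonneg_right hc2 hd0).trans ?_
    have h1 := (hρb t a ha b hb).1
    have h2 := hle x a
    have h3 := hle y b
    have h4 := hρt a x b
    have h5 := hρt x y b
    have h6 := hd.tri x a y
    have h7 := hd.tri a b y
    rw [hρs a x] at h4
    rw [hd.symm b y] at h7
    have h8 : κ * (d x y - 2 * (κ / 8 * d x y)) ≤ κ * d a b :=
      mul_le_mul_of_nonneg_left (by linarith) hκ.le
    have h9 : 0 ≤ (1 - κ) * (κ * d x y) :=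
      mul_nonneg (by linarith) (mul_nonneg hκ.le hd0)
    have h10 : 0 ≤ κ * d x y := mul_nonneg hκ.le hd0
    nlinarith

/-- **P7**: the global cut measure from the local data. -/
theorem target_of_local {k : ℕ} {κ C1 : ℝ} (hκ : 0 < κ) (hκ1 : κ ≤ 1) (hC : 0 < C1)
    (H : ∀ (n : ℕ) (A : Fin n → Finset (Fin n)) (d : Fin n → Fin n → ℝ), 0 < n →
      ∀ hA : H263.IsElim k A, H263.IsSep A d → Local hA d κ C1) :
    ∃ c : ℝ, 0 < c ∧ H263.Target k c :=
  ⟨cEnd k κ C1, cEnd_pos hκ hC, fun n A d hn hA hd =>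
    end_cut hn hA hd hκ hκ1 hC (H n A d hn hA hd)⟩

end Vale.Agent.P235.H684
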