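import Vale.Agent.P235.H684.Marg
import Vale.Agent.P235.H254.Comp

set_option linter.all false

/-!
# The Markov law along a path of the elimination tree, and the comparison with a coupling
-/

namespace Vale.Agent.P235.H684

open Finset Function

variable {n : ℕ}

/-- a path of the tree, downwards -/
structure Path (E : Elim n) (q : ℕ → Fin n) (N : ℕ) : Prop where
  pos : 0 < N
  par : ∀ i < N, E.par (q (i + 1)) = q i
  ne : ∀ i < N, q i ≠ q (i + 1)

/-- a coupling of the bag laws along a path, in which the last vertex is never guessed better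
than `c` from the first bag -/
structure Coup (E : Elim n) (μ : Fin n → (Fin n → Bool) → ℝ) (q : ℕ → Fin n) (N : ℕ) (c : ℝ)
    {Ω : Type} [Fintype Ω] (w : Ω → ℝ) (X : ℕ → Ω → (Fin n → Bool)) : Prop where
  nonneg : ∀ ω, 0 ≤ w ω
  bag : ∀ i ≤ N, ∀ h : (Fin n → Bool) → ℝ, DepOn (E.B (q i) : Set (Fin n)) h →
    ∑ ω, w ω * h (X i ω) = Ex (μ (q i)) h
  agree : ∀ i < N, ∀ ω, w ω ≠ 0 → ∀ v ∈ E.A (q (i + 1)), X i ω v = X (i + 1) ω v
  far : ∀ f : (Fin n → Bool) → ℝ, (∀ Y, f Y = 0 ∨ f Y = 1) →
    DepOn (E.B (q 0) : Set (Fin n)) f →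
    c ≤ ∑ ω, w ω * |f (X 0 ω) - (if X N ω (q N) = true then 1 else 0)|

/-- restrict a cut to a set -/
def mask (D : Finset (Fin n)) (X : Fin n → Bool) : Fin n → Bool := fun v => X v && decide (v ∈ D)

theorem mask_of_mem {D : Finset (Fin n)} {v : Fin n} (h : v ∈ D) (X : Fin n → Bool) :
    mask D X v = X v := by
  simp [mask, h]

theorem mask_dep (D : Finset (Fin n)) : DepOn (D : Set (Fin n)) (mask D) := by
  intro X Y h
  funext v
  by_cases hv : v ∈ D
  · rw [mask_of_mem hv, mask_of_mem hv]
    exact h v (Finset.mem_coe.2 hv)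
  · simp [mask, hv]

theorem DepOn.mask {β : Type} {D : Finset (Fin n)} {h : (Fin n → Bool) → β}
    (hh : DepOn (D : Set (Fin n)) h) (X : Fin n → Bool) : h (mask D X) = h X :=
  hh _ _ fun v hv => mask_of_mem (Finset.mem_coe.1 hv) X

theorem DepOn.comp {β γ : Type} {D : Set (Fin n)} {h : (Fin n → Bool) → β} (hh : DepOn D h)
    (g : β → γ) : DepOn D fun X => g (h X) := fun X Y hXY => congrArg g (hh X Y hXY)

theorem DepOn.mul {D : Set (Fin n)} {f g : (Fin n → Bool) → ℝ} (hf : DepOn D f)
    (hg : DepOn D g) : DepOn D fun X => f X * g X := fun X Y h => by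
  show f X * g X = f Y * g Y
  rw [hf X Y h, hg X Y h]

section expand

variable {K : Fin n → (Fin n → Bool) → Bool → ℝ}

/-- decomposition over the values of a mask -/
theorem PM_expand (D : Finset (Fin n)) (F : (Fin n → Bool) → ℝ)
    (g : (Fin n → Bool) → ℝ) :
    PM K (fun X => F X * g (mask D X)) =
      ∑ a, g a * PM K fun X => F X * (if mask D X = a then 1 else 0) := by
  have h1 : (fun X => F X * g (mask D X)) = fun X => ∑ a, g a *
      (F X * (if mask D X = a then 1 else 0)) := by
    funext X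
    have h2 : ∀ a : Fin n → Bool, g a * (F X * (if mask D X = a then (1 : ℝ) else 0)) =
        if mask D X = a then F X * g a else 0 := by
      intro a
      split_ifs <;> ring
    rw [Finset.sum_congr rfl fun a _ => h2 a, Finset.sum_ite_eq]
    simp
  rw [h1, PM_sum]
  refine Finset.sum_congr rfl fun a _ => ?_
  rw [PM_smul]

end expand

section path

variable {E : Elim n} {q : ℕ → Fin n} {N : ℕ}

namespace Path

theorem desc (hp : Path E q N) {i : ℕ} (h1 : 1 ≤ i) (hi : i ≤ N) : E.Desc (q 1) (q i) := by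
  induction i, h1 using Nat.le_induction with
  | base => exact Elim.Desc.refl E _
  | succ i h1 ih =>
    refine Elim.Desc.par ?_
    rw [hp.par i (by omega)]
    exact ih (by omega)

theorem out_sub (hp : Path E q N) {i : ℕ} (h1 : 1 ≤ i) (hi : i ≤ N) :
    E.Out (q 1) ⊆ E.Out (q i) := fun _ hv h => hv ((hp.desc h1 hi).trans h)

/-- the adhesion of the next node is in the bag -/
theorem A_sub (hp : Path E q N) {i : ℕ} (hi : i < N) : E.A (q (i + 1)) ⊆ E.B (q i) := by
  have := E.sub (q (i + 1))
  rwa [hp.par i hi] at this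

end Path

/-- the sets on which the states live -/
def Ds (E : Elim n) (q : ℕ → Fin n) (N i : ℕ) : Finset (Fin n) :=
  if i < N then E.A (q (i + 1)) else {q N}

theorem Ds_lt {i : ℕ} (h : i < N) : Ds E q N i = E.A (q (i + 1)) := if_pos h

theorem Ds_last : Ds E q N N = {q N} := if_neg (lt_irrefl _)

theorem Ds_sub (i : ℕ) (hi : i < N) : Ds E q N i ⊆ E.B (q (i + 1)) := by
  rw [Ds_lt hi]
  exact Finset.subset_insert _ _

theorem Ds_succ_sub (hp : Path E q N) (i : ℕ) (hi : i < N) :
    Ds E q N (i + 1) ⊆ E.B (q (i + 1)) := by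
  by_cases h : i + 1 < N
  · rw [Ds_lt h]
    exact hp.A_sub h
  · have h1 : i + 1 = N := by omega
    rw [h1, Ds_last, Finset.singleton_subset_iff]
    exact Finset.mem_insert_self _ _

end path

/-! ### the pair laws -/

section pair

variable {E : Elim n} {q : ℕ → Fin n} {N : ℕ} {K : Fin n → (Fin n → Bool) → Bool → ℝ}

/-- indicator -/
noncomputable def ind (E : Elim n) (q : ℕ → Fin n) (N i : ℕ) (a X : Fin n → Bool) : ℝ :=
  if mask (Ds E q N i) X = a then 1 else 0

theorem ind_dep (i : ℕ) (a : Fin n → Bool) :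
    DepOn (Ds E q N i : Set (Fin n)) (ind E q N i a) := by
  intro X Y h
  unfold ind
  rw [mask_dep (Ds E q N i) X Y h]

theorem ind_nonneg (i : ℕ) (a X : Fin n → Bool) : 0 ≤ ind E q N i a X := by
  unfold ind; split_ifs <;> norm_num

theorem ind_le_one (i : ℕ) (a X : Fin n → Bool) : ind E q N i a X ≤ 1 := by
  unfold ind; split_ifs <;> norm_num

theorem sum_ind (i : ℕ) (X : Fin n → Bool) (g : (Fin n → Bool) → ℝ) :
    ∑ a, g a * ind E q N i a X = g (mask (Ds E q N i) X) := by
  unfold ind
  simp

/-- the masses of the states -/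
noncomputable def nu (K : Fin n → (Fin n → Bool) → Bool → ℝ) (E : Elim n) (q : ℕ → Fin n)
    (N i : ℕ) (a : Fin n → Bool) : ℝ := PM K (ind E q N i a)

/-- the masses of the pairs -/
noncomputable def pp (K : Fin n → (Fin n → Bool) → Bool → ℝ) (E : Elim n) (q : ℕ → Fin n)
    (N i : ℕ) (a b : Fin n → Bool) : ℝ :=
  PM K fun X => ind E q N i a X * ind E q N (i + 1) b X

theorem sum_pp (i : ℕ) (g : (Fin n → Bool) → (Fin n → Bool) → ℝ) :
    ∑ a, ∑ b, pp K E q N i a b * g a b =
      PM K fun X => g (mask (Ds E q N i) X) (mask (Ds E q N (i + 1)) X) := by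
  have h1 : (fun X => g (mask (Ds E q N i) X) (mask (Ds E q N (i + 1)) X)) =
      fun X => ∑ a, ∑ b, g a b * (ind E q N i a X * ind E q N (i + 1) b X) := by
    funext X
    have h2 : ∀ a, ∑ b, g a b * (ind E q N i a X * ind E q N (i + 1) b X) =
        g a (mask (Ds E q N (i + 1)) X) * ind E q N i a X := by
      intro a
      rw [← sum_ind (E := E) (q := q) (N := N) (i + 1) X (g a), Finset.sum_mul]
      exact Finset.sum_congr rfl fun b _ => by ring
    rw [Finset.sum_congr rfl fun a _ => h2 a]
    exact (sum_ind (E := E) (q := q) (N := N) i X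
      fun a => g a (mask (Ds E q N (i + 1)) X)).symm
  rw [h1, PM_sum]
  refine Finset.sum_congr rfl fun a _ => ?_
  rw [PM_sum]
  refine Finset.sum_congr rfl fun b _ => ?_
  rw [PM_smul, mul_comm]
  rfl

theorem sum_nu (i : ℕ) (g : (Fin n → Bool) → ℝ) :
    ∑ a, nu K E q N i a * g a = PM K fun X => g (mask (Ds E q N i) X) := by
  have h1 : (fun X => g (mask (Ds E q N i) X)) = fun X => ∑ a, g a * ind E q N i a X := by
    funext X
    rw [sum_ind]
  rw [h1, PM_sum]
  refine Finset.sum_congr rfl fun a _ => ?_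
  rw [PM_smul, mul_comm]
  rfl

/-- the pair laws of the chain -/
noncomputable def PL (hK : Ker E.A K) (q : ℕ → Fin n) (N : ℕ) :
    H254.PairLaw (Fin n → Bool) N where
  mu := nu K E q N
  p := pp K E q N
  p_nonneg i a b := PM_nonneg hK fun X => mul_nonneg (ind_nonneg _ _ _) (ind_nonneg _ _ _)
  mu_nonneg i a := PM_nonneg hK fun X => ind_nonneg _ _ _
  left := by
    intro i hi a
    have h1 := sum_pp (K := K) (E := E) (q := q) (N := N) i fun a' _ => if a' = a then 1 else 0
    have h2 : ∑ a', ∑ b, pp K E q N i a' b * (if a' = a then (1 : ℝ) else 0) =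
        ∑ b, pp K E q N i a b := by
      rw [Finset.sum_eq_single a]
      · simp
      · intro b _ hb
        simp [hb]
      · simp
    rw [← h2, h1]
    rfl
  right := by
    intro i hi b
    have h1 := sum_pp (K := K) (E := E) (q := q) (N := N) i fun _ b' => if b' = b then 1 else 0
    have h2 : ∑ a, ∑ b', pp K E q N i a b' * (if b' = b then (1 : ℝ) else 0) =
        ∑ a, pp K E q N i a b := by
      refine Finset.sum_congr rfl fun a _ => ?_
      simp
    rw [← h2, h1]
    rfl

theorem atMost (hK : Ker E.A K) {k : ℕ} (hk : 1 ≤ k) (hA : ∀ t, (E.A t).card ≤ k) :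
    H254.AtMost (PL hK q N) (2 ^ k) := by
  classical
  intro i _
  refine ⟨(Ds E q N i).powerset.image fun s v => decide (v ∈ s), ?_, fun a ha => ?_⟩
  · refine Finset.card_image_le.trans ?_
    rw [Finset.card_powerset]
    refine Nat.pow_le_pow_right (by norm_num) ?_
    unfold Ds
    split_ifs
    · exact hA _
    · simpa using hk
  · by_contra hcon
    apply ha
    show PM K (ind E q N i a) = 0
    have h0 : ind E q N i a = fun _ => 0 := by
      funext X
      unfold ind
      rw [if_neg]
      intro h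
      apply hcon
      rw [Finset.mem_image]
      refine ⟨(Ds E q N i).filter fun v => X v = true, ?_, ?_⟩
      · rw [Finset.mem_powerset]
        exact Finset.filter_subset _ _
      · rw [← h]
        funext v
        by_cases hv : v ∈ Ds E q N i <;> by_cases hx : X v = true <;> simp [mask, hv, hx]
    rw [h0, PM_const hK]

/-- the coupling has the pair laws of the chain -/
theorem hasPairs {μ : Fin n → (Fin n → Bool) → ℝ} (hμ : ∀ t, IsLaw (μ t)) (hc : Cons E μ)
    (hp : Path E q N) {c : ℝ} {Ω : Type} [Fintype Ω] {w : Ω → ℝ}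
    {X : ℕ → Ω → (Fin n → Bool)} (hX : Coup E μ q N c w X) :
    H254.HasPairs (PL (KK_ker (E := E) hμ) q N) w
      fun i ω => mask (Ds E q N i) (X (min (i + 1) N) ω) where
  nonneg := hX.nonneg
  pair := by
    intro i hi g
    have h1 := sum_pp (K := KK E μ) (E := E) (q := q) (N := N) i g
    have hdep : DepOn (E.B (q (i + 1)) : Set (Fin n)) fun Y =>
        g (mask (Ds E q N i) Y) (mask (Ds E q N (i + 1)) Y) := by
      intro Y Z hYZ
      have e1 := mask_dep (Ds E q N i) Y Z fun v hv =>
        hYZ v (Finset.mem_coe.2 (Ds_sub i hi (Finset.mem_coe.1 hv)))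
      have e2 := mask_dep (Ds E q N (i + 1)) Y Z fun v hv =>
        hYZ v (Finset.mem_coe.2 (Ds_succ_sub hp i hi (Finset.mem_coe.1 hv)))
      simp only [e1, e2]
    have h2 := PM_bag hμ hc (q (i + 1)) hdep
    have h3 := hX.bag (i + 1) hi _ hdep
    show _ = ∑ a, ∑ b, pp (KK E μ) E q N i a b * g a b
    rw [h1, h2, ← h3]
    refine Finset.sum_congr rfl fun ω _ => ?_
    by_cases hw : w ω = 0
    · rw [hw, zero_mul, zero_mul]
    · congr 1
      have hm1 : min (i + 1) N = i + 1 := by omega
      simp only [hm1]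
      congr 1
      by_cases hi2 : i + 1 < N
      · have hm2 : min (i + 1 + 1) N = i + 1 + 1 := by omega
        rw [hm2]
        refine mask_dep _ _ _ fun v hv => ?_
        rw [Ds_lt hi2] at hv
        exact (hX.agree (i + 1) hi2 ω hw v (Finset.mem_coe.1 hv)).symm
      · have hm2 : min (i + 1 + 1) N = i + 1 := by omega
        rw [hm2]
  last := by
    intro g
    have hdep : DepOn (E.B (q N) : Set (Fin n)) fun Y => g (mask (Ds E q N N) Y) := by
      intro Y Z hYZ
      have e1 := mask_dep (Ds E q N N) Y Z fun v hv => hYZ v (by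
        rw [Ds_last] at hv
        rw [Finset.mem_singleton.1 (Finset.mem_coe.1 hv)]
        exact Finset.mem_coe.2 (Finset.mem_insert_self _ _))
      simp only [e1]
    have h1 := sum_nu (K := KK E μ) (E := E) (q := q) (N := N) N g
    have h2 := PM_bag hμ hc (q N) hdep
    have h3 := hX.bag N le_rfl _ hdep
    show _ = ∑ b, nu (KK E μ) E q N N b * g b
    rw [h1, h2, ← h3]
    have hm : min (N + 1) N = N := by omega
    simp only [hm]

end pair

end Vale.Agent.P235.H684
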