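import Vale.Agent.P235.H684.Guess

set_option linter.all false

/-!
# The comparison along a path, and the optimal guess
-/

namespace Vale.Agent.P235.H684

open Finset Function

variable {n : ℕ}

section mono

variable {A : Fin n → Finset (Fin n)} {K : Fin n → (Fin n → Bool) → Bool → ℝ}

theorem PM_mono (hK : Ker A K) {Φ Ψ : (Fin n → Bool) → ℝ} (h : ∀ X, Φ X ≤ Ψ X) :
    PM K Φ ≤ PM K Ψ := by
  have h1 : Ψ = fun X => Φ X + (Ψ X - Φ X) := by funext X; ring
  have h2 := PM_nonneg hK (Φ := fun X => Ψ X - Φ X) fun X => sub_nonneg.2 (h X)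
  rw [h1, PM_add]
  linarith

end mono

section harm

variable {E : Elim n} {q : ℕ → Fin n} {N : ℕ} {K : Fin n → (Fin n → Bool) → Bool → ℝ}

/-- the joint masses of the guess and the states -/
noncomputable def num (K : Fin n → (Fin n → Bool) → Bool → ℝ) (E : Elim n) (q : ℕ → Fin n)
    (N : ℕ) (F : (Fin n → Bool) → ℝ) (i : ℕ) (a : Fin n → Bool) : ℝ :=
  PM K fun X => F X * ind E q N i a X

/-- the conditional probabilities of the guess -/
noncomputable def psi (K : Fin n → (Fin n → Bool) → Bool → ℝ) (E : Elim n) (q : ℕ → Fin n)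
    (N : ℕ) (F : (Fin n → Bool) → ℝ) (i : ℕ) (a : Fin n → Bool) : ℝ :=
  if i = 0 then F a else num K E q N F i a / nu K E q N i a

theorem psi_zero (F : (Fin n → Bool) → ℝ) : psi K E q N F 0 = F := by
  funext a
  simp [psi]

theorem num_nonneg (hK : Ker E.A K) {F : (Fin n → Bool) → ℝ} (hF : ∀ X, F X = 0 ∨ F X = 1)
    (i : ℕ) (a : Fin n → Bool) : 0 ≤ num K E q N F i a := by
  refine PM_nonneg hK fun X => mul_nonneg ?_ (ind_nonneg _ _ _)
  rcases hF X with h | h <;> rw [h] <;> norm_num

theorem num_le (hK : Ker E.A K) {F : (Fin n → Bool) → ℝ} (hF : ∀ X, F X = 0 ∨ F X = 1)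
    (i : ℕ) (a : Fin n → Bool) : num K E q N F i a ≤ nu K E q N i a := by
  refine PM_mono hK fun X => ?_
  have h1 := ind_nonneg (E := E) (q := q) (N := N) i a X
  rcases hF X with h | h <;> rw [h] <;> linarith

theorem Ds_zero (hN : 0 < N) : Ds E q N 0 = E.A (q 1) := Ds_lt hN

/-- `nu * psi` is the joint mass -/
theorem nu_psi (hK : Ker E.A K) (hN : 0 < N) {F : (Fin n → Bool) → ℝ}
    (hF : ∀ X, F X = 0 ∨ F X = 1) (hd : DepOn (E.A (q 1) : Set (Fin n)) F)
    (i : ℕ) (a : Fin n → Bool) : nu K E q N i a * psi K E q N F i a = num K E q N F i a := by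
  by_cases hi : i = 0
  · subst hi
    rw [psi_zero, mul_comm]
    unfold nu num
    rw [← PM_smul]
    congr 1
    funext X
    unfold ind
    by_cases h : mask (Ds E q N 0) X = a
    · rw [if_pos h, ← h]
      have h1 : F (mask (Ds E q N 0) X) = F X := by
        rw [Ds_zero hN]
        exact hd.mask X
      rw [h1]
    · rw [if_neg h, mul_zero, mul_zero]
  · unfold psi
    rw [if_neg hi]
    by_cases h : nu K E q N i a = 0
    · have h1 := num_nonneg (E := E) (q := q) (N := N) hK hF i a
      have h2 := num_le (E := E) (q := q) (N := N) hK hF i a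
      rw [h] at h2 ⊢
      rw [zero_mul]
      exact le_antisymm h1 h2
    · field_simp

/-- **the Markov step** -/
theorem step (hK : Ker E.A K) (hp : Path E q N) {F : (Fin n → Bool) → ℝ}
    (hd : DepOn (E.Out (q 1)) F) (i : ℕ) (hi : i < N) (b : Fin n → Bool) :
    ∃ u : (Fin n → Bool) → ℝ,
      (∀ a, pp K E q N i a b = nu K E q N i a * u a) ∧
      ∑ a, num K E q N F i a * u a = num K E q N F (i + 1) b := by
  have hind : DepOn (E.B (q (i + 1)) : Set (Fin n)) (ind E q N (i + 1) b) :=
    (ind_dep (i + 1) b).mono (Finset.coe_subset.2 (Ds_succ_sub hp i hi))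
  have hind1 : DepOn (insert (q (i + 1)) (E.A (q (i + 1)) : Set (Fin n)))
      (ind E q N (i + 1) b) := by
    refine hind.mono ?_
    rw [Elim.B, Finset.coe_insert]
  have hu : DepOn (E.A (q (i + 1)) : Set (Fin n)) (Sop K (q (i + 1)) (ind E q N (i + 1) b)) :=
    Sop_dep hK subset_rfl hind1
  have hu' : DepOn (Ds E q N i : Set (Fin n)) (Sop K (q (i + 1)) (ind E q N (i + 1) b)) := by
    rw [Ds_lt hi]; exact hu
  refine ⟨Sop K (q (i + 1)) (ind E q N (i + 1) b), fun a => ?_, ?_⟩
  · have hia : DepOn (E.Out (q (i + 1))) (ind E q N i a) := by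
      refine (ind_dep i a).mono ?_
      rw [Ds_lt hi]
      exact Elim.A_sub_out_self _
    unfold pp
    rw [PM_key hK hia hind, mul_comm]
    unfold nu
    rw [← PM_smul]
    congr 1
    funext X
    unfold ind
    by_cases h : mask (Ds E q N i) X = a
    · rw [if_pos h, ← h, one_mul, mul_one]
      exact (hu'.mask X).symm
    · rw [if_neg h, zero_mul, mul_zero]
  · have h1 := PM_expand (K := K) (Ds E q N i) F (Sop K (q (i + 1)) (ind E q N (i + 1) b))
    have h2 : (fun X => F X * Sop K (q (i + 1)) (ind E q N (i + 1) b) (mask (Ds E q N i) X)) =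
        fun X => F X * Sop K (q (i + 1)) (ind E q N (i + 1) b) X := by
      funext X
      rw [hu'.mask X]
    have h3 : PM K (fun X => F X * Sop K (q (i + 1)) (ind E q N (i + 1) b) X) =
        num K E q N F (i + 1) b := by
      refine (PM_key hK (hd.mono ?_) hind).symm
      exact hp.out_sub (by omega) hi
    rw [← h3, ← h2, h1]
    refine Finset.sum_congr rfl fun a _ => ?_
    rw [mul_comm]
    rfl

/-- **harmonicity of the conditional probabilities** -/
theorem harm (hK : Ker E.A K) (hp : Path E q N) {F : (Fin n → Bool) → ℝ}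
    (hF : ∀ X, F X = 0 ∨ F X = 1) (hd : DepOn (E.A (q 1) : Set (Fin n)) F)
    (i : ℕ) (hi : i < N) (b : Fin n → Bool) :
    ∑ a, pp K E q N i a b * psi K E q N F i a =
      nu K E q N (i + 1) b * psi K E q N F (i + 1) b := by
  obtain ⟨u, h1, h2⟩ := step hK hp (hd.mono (Elim.A_sub_out_self _)) i hi b
  rw [nu_psi hK hp.pos hF hd, ← h2]
  refine Finset.sum_congr rfl fun a _ => ?_
  rw [h1 a, ← nu_psi hK hp.pos hF hd i a]
  ring

end harm

/-! ### The comparison -/

section comp

variable {E : Elim n} {q : ℕ → Fin n} {N : ℕ}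

/-- the value at `v` as a real number -/
noncomputable def val (v : Fin n) (X : Fin n → Bool) : ℝ := if X v = true then 1 else 0

theorem val_dep (v : Fin n) : DepOn ({v} : Set (Fin n)) (val v) := by
  intro X Y h
  unfold val
  rw [h v rfl]

theorem val_cases (v : Fin n) (X : Fin n → Bool) : val v X = 0 ∨ val v X = 1 := by
  unfold val; split_ifs <;> simp

/-- **Comparison**: the guesses of the Markov law are not much better. -/
theorem guess {μ : Fin n → (Fin n → Bool) → ℝ} (hμ : ∀ t, IsLaw (μ t)) (hc : Cons E μ)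
    {k : ℕ} (hA : ∀ t, (E.A t).card ≤ k) (hp : Path E q N) {c : ℝ} {Ω : Type} [Fintype Ω]
    {w : Ω → ℝ} {X : ℕ → Ω → (Fin n → Bool)} (hX : Coup E μ q N c w X)
    {F : (Fin n → Bool) → ℝ} (hF : ∀ X, F X = 0 ∨ F X = 1)
    (hd : DepOn (E.A (q 1) : Set (Fin n)) F) :
    c ≤ H254.KK (2 ^ (k + 1)) * PM (KK E μ) fun X => |F X - val (q N) X| := by
  have hK := KK_ker (E := E) hμ
  have hN := hp.pos
  have hAM := atMost (q := q) (N := N) hK (k := k + 1) (by omega) fun t => (hA t).trans (by omega)
  have hHP := hasPairs hμ hc hp hX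
  have h1 := H254.comparison' (PL hK q N) F hAM hF (val_cases (q N)) hHP
    (ψ := psi (KK E μ) E q N F) (psi_zero F) (harm hK hp hF hd)
  have hAB : (E.A (q 1) : Set (Fin n)) ⊆ (E.B (q 0) : Set (Fin n)) :=
    Finset.coe_subset.2 (hp.A_sub hN)
  refine (hX.far F hF (hd.mono hAB)).trans ?_
  have h2 : ∑ ω, w ω * |F (X 0 ω) - (if X N ω (q N) = true then 1 else 0)| =
      ∑ ω, w ω * |F (mask (Ds E q N 0) (X (min (0 + 1) N) ω)) -
        val (q N) (mask (Ds E q N N) (X (min (N + 1) N) ω))| := by
    refine Finset.sum_congr rfl fun ω _ => ?_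
    by_cases hw : w ω = 0
    · rw [hw, zero_mul, zero_mul]
    · have e1 : min (0 + 1) N = 1 := by omega
      have e2 : min (N + 1) N = N := by omega
      rw [e1, e2]
      have e3 : F (mask (Ds E q N 0) (X 1 ω)) = F (X 0 ω) := by
        rw [Ds_zero hN, hd.mask]
        refine (hd _ _ fun v hv => ?_).symm
        exact hX.agree 0 hN ω hw v (Finset.mem_coe.1 hv)
      have e4 : val (q N) (mask (Ds E q N N) (X N ω)) = val (q N) (X N ω) := by
        refine val_dep (q N) _ _ fun v hv => ?_
        rw [Set.mem_singleton_iff] at hv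
        rw [hv, Ds_last]
        exact mask_of_mem (Finset.mem_singleton_self _) _
      rw [e3, e4]
      rfl
  rw [h2]
  refine h1.trans (le_of_eq ?_)
  congr 1
  -- the right-hand side
  show ∑ b, nu (KK E μ) E q N N b * |psi (KK E μ) E q N F N b - val (q N) b| = _
  have h3 : (fun X => |F X - val (q N) X|) = fun X =>
      ∑ b, (val (q N) b * (ind E q N N b X + (-1) * (F X * ind E q N N b X)) +
        (1 - val (q N) b) * (F X * ind E q N N b X)) := by
    funext X
    have e1 : ∑ b, (val (q N) b * (ind E q N N b X + (-1) * (F X * ind E q N N b X)) +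
        (1 - val (q N) b) * (F X * ind E q N N b X)) =
        ∑ b, ((val (q N) b * (1 - F X) + (1 - val (q N) b) * F X) * ind E q N N b X) :=
      Finset.sum_congr rfl fun b _ => by ring
    rw [e1, sum_ind (E := E) (q := q) (N := N) N X
      fun b => val (q N) b * (1 - F X) + (1 - val (q N) b) * F X]
    have e4 : val (q N) (mask (Ds E q N N) X) = val (q N) X := by
      refine val_dep (q N) _ _ fun v hv => ?_
      rw [Set.mem_singleton_iff] at hv
      rw [hv, Ds_last]
      exact mask_of_mem (Finset.mem_singleton_self _) _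
    rw [e4]
    rcases hF X with h | h <;> rcases val_cases (q N) X with h' | h' <;> rw [h, h'] <;> norm_num
  rw [h3, PM_sum]
  refine Finset.sum_congr rfl fun b _ => ?_
  rw [PM_add, PM_smul, PM_smul, PM_add, PM_smul]
  have h4 := nu_psi (E := E) (q := q) hK hN hF hd N b
  have h5 := num_nonneg (E := E) (q := q) (N := N) hK hF N b
  have h6 := num_le (E := E) (q := q) (N := N) hK hF N b
  show _ = val (q N) b * (nu (KK E μ) E q N N b + (-1) * num (KK E μ) E q N F N b) +
    (1 - val (q N) b) * num (KK E μ) E q N F N b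
  have h7 : 0 ≤ nu (KK E μ) E q N N b := h5.trans h6
  rw [← abs_of_nonneg h7, ← abs_mul, abs_of_nonneg h7, mul_sub, h4]
  rcases val_cases (q N) b with h' | h'
  · rw [h', mul_zero, sub_zero, abs_of_nonneg h5]
    ring
  · rw [h', mul_one, abs_of_nonpos (by linarith)]
    ring

end comp

/-! ### The backward function -/

section back

variable {E : Elim n} {q : ℕ → Fin n} {N : ℕ} {K : Fin n → (Fin n → Bool) → Bool → ℝ}

/-- integrate out the vertices of the path, from the end -/
noncomputable def back (K : Fin n → (Fin n → Bool) → Bool → ℝ) (q : ℕ → Fin n) :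
    ℕ → ((Fin n → Bool) → ℝ) → ((Fin n → Bool) → ℝ)
  | 0, Φ => Φ
  | j + 1, Φ => back K q j (Sop K (q (j + 1)) Φ)

theorem back_spec (hK : Ker E.A K) (hp : Path E q N) (j : ℕ) (h1 : 1 ≤ j) (hj : j ≤ N) :
    ∀ Φ : (Fin n → Bool) → ℝ, DepOn (E.B (q j) : Set (Fin n)) Φ →
      DepOn (E.A (q 1) : Set (Fin n)) (back K q j Φ) ∧
      ∀ G : (Fin n → Bool) → ℝ, DepOn (E.Out (q 1)) G →
        PM K (fun X => G X * Φ X) = PM K fun X => G X * back K q j Φ X := by
  induction j, h1 using Nat.le_induction with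
  | base =>
    intro Φ hΦ
    have hΦ1 : DepOn (insert (q 1) (E.A (q 1) : Set (Fin n))) Φ := by
      refine hΦ.mono ?_
      rw [Elim.B, Finset.coe_insert]
    exact ⟨Sop_dep hK subset_rfl hΦ1, fun G hG => PM_key hK hG hΦ⟩
  | succ j h1 ih =>
    intro Φ hΦ
    have hΦ1 : DepOn (insert (q (j + 1)) (E.A (q (j + 1)) : Set (Fin n))) Φ := by
      refine hΦ.mono ?_
      rw [Elim.B, Finset.coe_insert]
    have hS : DepOn (E.B (q j) : Set (Fin n)) (Sop K (q (j + 1)) Φ) :=
      (Sop_dep hK subset_rfl hΦ1).mono (Finset.coe_subset.2 (hp.A_sub (by omega)))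
    obtain ⟨h2, h3⟩ := ih (by omega) _ hS
    refine ⟨h2, fun G hG => ?_⟩
    rw [PM_key hK (hG.mono (hp.out_sub (by omega) hj)) hΦ]
    exact h3 G hG

/-- **Far vertices are separated.** -/
theorem far_pair {μ : Fin n → (Fin n → Bool) → ℝ} (hμ : ∀ t, IsLaw (μ t)) (hc : Cons E μ)
    {k : ℕ} (hA : ∀ t, (E.A t).card ≤ k) (hp : Path E q N) {c : ℝ} {Ω : Type} [Fintype Ω]
    {w : Ω → ℝ} {X : ℕ → Ω → (Fin n → Bool)} (hX : Coup E μ q N c w X)
    {y : Fin n} (hy : y ∈ E.Out (q 1)) :
    c ≤ H254.KK (2 ^ (k + 1)) *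
      PM (KK E μ) fun X => if X (q N) = X y then 0 else 1 := by
  have hK := KK_ker (E := E) hμ
  have hval : DepOn (E.B (q N) : Set (Fin n)) (val (q N)) := (val_dep (q N)).mono (by
    rw [Set.singleton_subset_iff]
    exact Finset.mem_coe.2 (Finset.mem_insert_self _ _))
  obtain ⟨hm, hbk⟩ := back_spec hK hp N hp.pos le_rfl _ hval
  set m := back (KK E μ) q N (val (q N)) with hmdef
  set F : (Fin n → Bool) → ℝ := fun X => if 1 / 2 < m X then 1 else 0 with hFdef
  have hF : ∀ X, F X = 0 ∨ F X = 1 := fun X => by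
    rw [hFdef]; dsimp only; split_ifs <;> simp
  have hFd : DepOn (E.A (q 1) : Set (Fin n)) F := by
    intro X Y h
    rw [hFdef]
    dsimp only
    rw [hm X Y h]
  have h1 := guess hμ hc hA hp hX hF hFd
  refine h1.trans (mul_le_mul_of_nonneg_left ?_ ?_)
  · have h2 : ∀ G : (Fin n → Bool) → ℝ, (∀ X, G X = 0 ∨ G X = 1) → DepOn (E.Out (q 1)) G →
        PM (KK E μ) (fun X => |G X - val (q N) X|) =
          PM (KK E μ) fun X => G X + (1 - 2 * G X) * m X := by
      intro G hG hGd
      have e1 : (fun X => |G X - val (q N) X|) = fun X => G X + (1 - 2 * G X) * val (q N) X := by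
        funext X
        rcases hG X with h | h <;> rcases val_cases (q N) X with h' | h' <;> rw [h, h'] <;>
          norm_num
      rw [e1, PM_add, PM_add]
      congr 1
      refine hbk (fun X => 1 - 2 * G X) ?_
      intro X Y h
      show 1 - 2 * G X = 1 - 2 * G Y
      rw [hGd X Y h]
    have hy1 : DepOn (E.Out (q 1)) (val y) := (val_dep y).mono (by
      rw [Set.singleton_subset_iff]; exact hy)
    rw [h2 F hF (hFd.mono (Elim.A_sub_out_self _))]
    have e2 : (fun X : Fin n → Bool => if X (q N) = X y then (0 : ℝ) else 1) =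
        fun X => |val y X - val (q N) X| := by
      funext X
      unfold val
      cases X (q N) <;> cases X y <;> simp
    rw [e2, h2 (val y) (val_cases y) hy1]
    refine PM_mono hK fun X => ?_
    rw [hFdef]
    dsimp only
    rcases val_cases y X with h | h <;> rw [h] <;> split_ifs with h' <;> linarith
  · unfold H254.KK
    positivity

end back

end Vale.Agent.P235.H684
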