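import Vale.Agent.P235.H684.Tree

set_option linter.all false

/-!
# The Markov law with given consistent bag laws
-/

namespace Vale.Agent.P235.H684

open Finset Function

variable {n : ℕ}

section kernel

/-- agreement on a finite set -/
def Agr (D : Finset (Fin n)) (X Y : Fin n → Bool) : Prop := ∀ v ∈ D, X v = Y v

instance (D : Finset (Fin n)) (X Y : Fin n → Bool) : Decidable (Agr D X Y) := by
  unfold Agr; infer_instance

theorem Agr.symm {D : Finset (Fin n)} {X Y : Fin n → Bool} (h : Agr D X Y) : Agr D Y X :=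
  fun v hv => (h v hv).symm

theorem Agr.trans {D : Finset (Fin n)} {X Y Z : Fin n → Bool} (h : Agr D X Y) (h' : Agr D Y Z) :
    Agr D X Z := fun v hv => (h v hv).trans (h' v hv)

/-- mass of a pattern on the adhesion -/
noncomputable def Mk (D : Finset (Fin n)) (P : (Fin n → Bool) → ℝ) (X : Fin n → Bool) : ℝ :=
  ∑ Y, if Agr D Y X then P Y else 0

/-- mass of a pattern on the adhesion with a value at `v` -/
noncomputable def Nk (D : Finset (Fin n)) (P : (Fin n → Bool) → ℝ) (v : Fin n)
    (X : Fin n → Bool) (b : Bool) : ℝ := ∑ Y, if Agr D Y X ∧ Y v = b then P Y else 0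

/-- conditional probability of the value `b` at `v` given the pattern on `D` -/
noncomputable def Kk (D : Finset (Fin n)) (P : (Fin n → Bool) → ℝ) (v : Fin n)
    (X : Fin n → Bool) (b : Bool) : ℝ :=
  if Mk D P X = 0 then (if b = false then 1 else 0) else Nk D P v X b / Mk D P X

variable {D : Finset (Fin n)} {P : (Fin n → Bool) → ℝ} {v : Fin n}

theorem Mk_congr {X Y : Fin n → Bool} (h : Agr D X Y) : Mk D P X = Mk D P Y := by
  unfold Mk
  refine Finset.sum_congr rfl fun Z _ => ?_
  have : Agr D Z X ↔ Agr D Z Y := ⟨fun h' => h'.trans h, fun h' => h'.trans h.symm⟩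
  simp only [this]

theorem Nk_congr {X Y : Fin n → Bool} (h : Agr D X Y) (b : Bool) :
    Nk D P v X b = Nk D P v Y b := by
  unfold Nk
  refine Finset.sum_congr rfl fun Z _ => ?_
  have : Agr D Z X ↔ Agr D Z Y := ⟨fun h' => h'.trans h, fun h' => h'.trans h.symm⟩
  simp only [this]

theorem Mk_nonneg (hP : ∀ X, 0 ≤ P X) (X : Fin n → Bool) : 0 ≤ Mk D P X :=
  Finset.sum_nonneg fun Y _ => by split_ifs; exacts [hP Y, le_rfl]

theorem Nk_nonneg (hP : ∀ X, 0 ≤ P X) (X : Fin n → Bool) (b : Bool) : 0 ≤ Nk D P v X b :=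
  Finset.sum_nonneg fun Y _ => by split_ifs; exacts [hP Y, le_rfl]

theorem Nk_sum (X : Fin n → Bool) : ∑ b, Nk D P v X b = Mk D P X := by
  unfold Nk Mk
  rw [Finset.sum_comm]
  refine Finset.sum_congr rfl fun Y _ => ?_
  rw [Fintype.sum_bool]
  by_cases h : Agr D Y X <;> by_cases hb : Y v = true
  · simp [h, hb]
  · rw [Bool.not_eq_true] at hb
    simp [h, hb]
  · simp [h]
  · simp [h]

theorem le_Mk (hP : ∀ X, 0 ≤ P X) (X : Fin n → Bool) : P X ≤ Mk D P X := by
  unfold Mk
  have h1 : (if Agr D X X then P X else 0) = P X := if_pos fun _ _ => rfl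
  rw [← h1]
  exact Finset.single_le_sum (f := fun Y => if Agr D Y X then P Y else 0)
    (fun Y _ => by split_ifs; exacts [hP Y, le_rfl]) (Finset.mem_univ X)

theorem Kk_nonneg (hP : ∀ X, 0 ≤ P X) (X : Fin n → Bool) (b : Bool) : 0 ≤ Kk D P v X b := by
  unfold Kk
  split_ifs
  · norm_num
  · norm_num
  · exact div_nonneg (Nk_nonneg hP X b) (Mk_nonneg hP X)

theorem Kk_sum (X : Fin n → Bool) : ∑ b, Kk D P v X b = 1 := by
  unfold Kk
  by_cases h : Mk D P X = 0
  · simp [h]
  · simp only [h, if_false]
    rw [← Finset.sum_div, Nk_sum, div_self h]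

theorem Kk_dep (b : Bool) : DepOn (D : Set (Fin n)) fun X => Kk D P v X b := by
  intro X Y h
  have h' : Agr D X Y := fun w hw => h w (Finset.mem_coe.2 hw)
  show Kk D P v X b = Kk D P v Y b
  unfold Kk
  rw [Mk_congr h', Nk_congr h']

/-- averaging with the conditional probabilities does not change the expectation -/
theorem Ex_Sop {K : Fin n → (Fin n → Bool) → Bool → ℝ} (hK : K v = Kk D P v)
    (hP : ∀ X, 0 ≤ P X) {h : (Fin n → Bool) → ℝ}
    (hh : DepOn (insert v (D : Set (Fin n))) h) : Ex P (Sop K v h) = Ex P h := by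
  have claim : ∀ X, P X * Sop K v h X =
      ∑ Y, if Agr D Y X then P Y * (P X / Mk D P X) * h Y else 0 := by
    intro X
    by_cases hM : Mk D P X = 0
    · have h0 : P X = 0 := le_antisymm ((le_Mk hP X).trans hM.le) (hP X)
      rw [h0]
      simp
    · unfold Sop
      rw [hK]
      have h1 : ∀ b, Kk D P v X b * h (update X v b) = ∑ Y, if Agr D Y X then
          (if Y v = b then P Y / Mk D P X * h Y else 0) else 0 := by
        intro b
        unfold Kk
        rw [if_neg hM]
        unfold Nk
        rw [Finset.sum_div, Finset.sum_mul]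
        refine Finset.sum_congr rfl fun Y _ => ?_
        by_cases hA : Agr D Y X
        · by_cases hb : Y v = b
          · rw [if_pos ⟨hA, hb⟩, if_pos hA, if_pos hb]
            congr 1
            refine hh _ _ fun w hw => ?_
            by_cases hwv : w = v
            · rw [hwv, update_self, hb]
            · rw [update_of_ne hwv]
              exact (hA w (Finset.mem_coe.1 (hw.resolve_left hwv))).symm
          · rw [if_neg fun h => hb h.2, if_pos hA, if_neg hb]
            simp
        · rw [if_neg fun h => hA h.1, if_neg hA]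
          simp
      rw [Finset.sum_congr rfl fun b _ => h1 b, Finset.sum_comm, Finset.mul_sum]
      refine Finset.sum_congr rfl fun Y _ => ?_
      by_cases hA : Agr D Y X
      · simp only [hA, if_true]
        rw [Finset.sum_ite_eq]
        simp only [Finset.mem_univ, if_true]
        ring
      · simp [hA]
  unfold Ex
  rw [Finset.sum_congr rfl fun X _ => claim X, Finset.sum_comm]
  refine Finset.sum_congr rfl fun Y _ => ?_
  by_cases hY : P Y = 0
  · rw [hY]
    simp
  · have hM : Mk D P Y ≠ 0 := fun e => hY (le_antisymm ((le_Mk hP Y).trans e.le) (hP Y))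
    have h2 : ∀ X, (if Agr D Y X then P Y * (P X / Mk D P X) * h Y else 0) =
        (P Y * h Y / Mk D P Y) * (if Agr D X Y then P X else 0) := by
      intro X
      by_cases hA : Agr D Y X
      · rw [if_pos hA, if_pos hA.symm, Mk_congr hA]
        ring
      · rw [if_neg hA, if_neg fun h => hA h.symm, mul_zero]
    rw [Finset.sum_congr rfl fun X _ => h2 X, ← Finset.mul_sum]
    show P Y * h Y / Mk D P Y * Mk D P Y = _
    field_simp

end kernel

/-! ### The law -/

section law

variable {E : Elim n} {μ : Fin n → (Fin n → Bool) → ℝ}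

/-- the kernels of the bag laws -/
noncomputable def KK (E : Elim n) (μ : Fin n → (Fin n → Bool) → ℝ) (v : Fin n) :
    (Fin n → Bool) → Bool → ℝ := Kk (E.A v) (μ v) v

theorem KK_ker (hμ : ∀ t, IsLaw (μ t)) : Ker E.A (KK E μ) :=
  ⟨fun v X b => Kk_nonneg (hμ v).nonneg X b, fun v X => Kk_sum X, fun v b => Kk_dep b⟩

/-- the bag laws are consistent -/
def Cons (E : Elim n) (μ : Fin n → (Fin n → Bool) → ℝ) : Prop :=
  ∀ t, E.par t ≠ t → ∀ h : (Fin n → Bool) → ℝ, DepOn (E.A t : Set (Fin n)) h →
    Ex (μ t) h = Ex (μ (E.par t)) h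

theorem Ex_const {P : (Fin n → Bool) → ℝ} (hP : IsLaw P) (c : ℝ) : Ex P (fun _ => c) = c := by
  unfold Ex
  rw [← Finset.sum_mul, hP.sum, one_mul]

/-- **The bag laws of the Markov law.** -/
theorem PM_bag (hμ : ∀ t, IsLaw (μ t)) (hc : Cons E μ) (t : Fin n)
    {h : (Fin n → Bool) → ℝ} (hh : DepOn (E.B t : Set (Fin n)) h) :
    PM (KK E μ) h = Ex (μ t) h := by
  induction t using WellFoundedLT.induction generalizing h with
  | ind t ih =>
    have hK := KK_ker (E := E) hμ
    have hh1 : DepOn (insert t (E.A t : Set (Fin n))) h := by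
      refine hh.mono ?_
      rw [Elim.B, Finset.coe_insert]
    have hS : DepOn (E.A t : Set (Fin n)) (Sop (KK E μ) t h) := Sop_dep hK subset_rfl hh1
    have h1 := PM_key hK (t := t) (F := fun _ => 1) (fun _ _ _ => rfl) hh
    simp only [one_mul] at h1
    have h2 : Ex (μ t) (Sop (KK E μ) t h) = Ex (μ t) h :=
      Ex_Sop (D := E.A t) (P := μ t) rfl (hμ t).nonneg hh1
    rw [h1, ← h2]
    by_cases hr : E.par t = t
    · have hA := E.root t hr
      have hconst : Sop (KK E μ) t h = fun _ => Sop (KK E μ) t h fun _ => false := by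
        funext X
        refine hS _ _ fun w hw => ?_
        rw [hA] at hw
        simp at hw
      rw [hconst, PM_const hK, Ex_const (hμ t)]
    · rw [hc t hr _ hS]
      refine ih _ (lt_of_le_of_ne (E.par_le t) hr) (hS.mono ?_)
      exact Finset.coe_subset.2 (E.sub t)

end law

end Vale.Agent.P235.H684
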