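import Mathlib

set_option linter.all false

/-!
# The Markov law of an elimination tree
-/

namespace Vale.Agent.P235.H684

open Finset Function

variable {n : ℕ}

/-- `h` depends only on the coordinates in `D` -/
def DepOn {β : Type} (D : Set (Fin n)) (h : (Fin n → Bool) → β) : Prop :=
  ∀ X Y : Fin n → Bool, (∀ v ∈ D, X v = Y v) → h X = h Y

theorem DepOn.mono {β : Type} {D D' : Set (Fin n)} {h : (Fin n → Bool) → β} (hD : DepOn D h)
    (hs : D ⊆ D') : DepOn D' h := fun X Y hXY => hD X Y fun v hv => hXY v (hs hv)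

theorem DepOn.update {β : Type} {D : Set (Fin n)} {h : (Fin n → Bool) → β} (hD : DepOn D h)
    {v : Fin n} (hv : v ∉ D) (X : Fin n → Bool) (b : Bool) : h (update X v b) = h X :=
  hD _ _ fun w hw => update_of_ne (fun e => hv (by rw [← e]; exact hw)) _ _

/-- a law on cuts -/
structure IsLaw (P : (Fin n → Bool) → ℝ) : Prop where
  nonneg : ∀ X, 0 ≤ P X
  sum : ∑ X, P X = 1

/-- the expectation -/
noncomputable def Ex (P : (Fin n → Bool) → ℝ) (h : (Fin n → Bool) → ℝ) : ℝ := ∑ X, P X * h X

/-! ### Kernels and the operators -/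

/-- a kernel for every coordinate, depending on the adhesion only -/
structure Ker (A : Fin n → Finset (Fin n)) (K : Fin n → (Fin n → Bool) → Bool → ℝ) : Prop where
  nonneg : ∀ v X b, 0 ≤ K v X b
  sum : ∀ v X, ∑ b, K v X b = 1
  dep : ∀ v b, DepOn (A v : Set (Fin n)) fun X => K v X b

/-- integrate out the coordinate `v` -/
noncomputable def Sop (K : Fin n → (Fin n → Bool) → Bool → ℝ) (v : Fin n)
    (Φ : (Fin n → Bool) → ℝ) (X : Fin n → Bool) : ℝ := ∑ b, K v X b * Φ (update X v b)

section Sop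

variable {A : Fin n → Finset (Fin n)} {K : Fin n → (Fin n → Bool) → Bool → ℝ}

theorem Sop_add (v : Fin n) (Φ Ψ : (Fin n → Bool) → ℝ) :
    Sop K v (fun X => Φ X + Ψ X) = fun X => Sop K v Φ X + Sop K v Ψ X := by
  funext X
  unfold Sop
  rw [← Finset.sum_add_distrib]
  exact Finset.sum_congr rfl fun b _ => by ring

theorem Sop_smul (v : Fin n) (c : ℝ) (Φ : (Fin n → Bool) → ℝ) :
    Sop K v (fun X => c * Φ X) = fun X => c * Sop K v Φ X := by
  funext X
  unfold Sop
  rw [Finset.mul_sum]
  exact Finset.sum_congr rfl fun b _ => by ring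

theorem Sop_mul_left (hK : Ker A K) (v : Fin n) {F : (Fin n → Bool) → ℝ}
    (hF : ∀ X b, F (update X v b) = F X) (h : (Fin n → Bool) → ℝ) :
    Sop K v (fun X => F X * h X) = fun X => F X * Sop K v h X := by
  funext X
  unfold Sop
  rw [Finset.mul_sum]
  refine Finset.sum_congr rfl fun b _ => ?_
  simp only [hF]
  ring

theorem Sop_mul_right (hK : Ker A K) (v : Fin n) {h : (Fin n → Bool) → ℝ}
    (hh : ∀ X b, h (update X v b) = h X) (F : (Fin n → Bool) → ℝ) :
    Sop K v (fun X => F X * h X) = fun X => Sop K v F X * h X := by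
  funext X
  unfold Sop
  rw [Finset.sum_mul]
  refine Finset.sum_congr rfl fun b _ => ?_
  simp only [hh]
  ring

theorem Sop_of_noDep (hK : Ker A K) (v : Fin n) {F : (Fin n → Bool) → ℝ}
    (hF : ∀ X b, F (update X v b) = F X) : Sop K v F = F := by
  funext X
  unfold Sop
  simp only [hF]
  rw [← Finset.sum_mul, hK.sum, one_mul]

theorem Sop_nonneg (hK : Ker A K) (v : Fin n) {Φ : (Fin n → Bool) → ℝ} (hΦ : ∀ X, 0 ≤ Φ X)
    (X : Fin n → Bool) : 0 ≤ Sop K v Φ X :=
  Finset.sum_nonneg fun b _ => mul_nonneg (hK.nonneg v X b) (hΦ _)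

theorem Sop_dep (hK : Ker A K) {v : Fin n} {D : Set (Fin n)} (hA : ↑(A v) ⊆ D)
    {Φ : (Fin n → Bool) → ℝ} (hΦ : DepOn (insert v D) Φ) : DepOn D (Sop K v Φ) := by
  intro X Y hXY
  unfold Sop
  refine Finset.sum_congr rfl fun b _ => ?_
  have hk : K v X b = K v Y b := hK.dep v b X Y fun w hw => hXY w (hA hw)
  rw [hk]
  congr 1
  refine hΦ _ _ fun w hw => ?_
  by_cases hwv : w = v
  · subst hwv; simp
  · rw [update_of_ne hwv, update_of_ne hwv]
    exact hXY w (hw.resolve_left hwv)

end Sop

/-- integrate out the coordinates `m - 1, …, 0` -/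
noncomputable def PMaux (K : Fin n → (Fin n → Bool) → Bool → ℝ) :
    ℕ → ((Fin n → Bool) → ℝ) → ((Fin n → Bool) → ℝ)
  | 0, Φ => Φ
  | m + 1, Φ => PMaux K m (if h : m < n then Sop K ⟨m, h⟩ Φ else Φ)

/-- the expectation of the Markov law -/
noncomputable def PM (K : Fin n → (Fin n → Bool) → Bool → ℝ) (Φ : (Fin n → Bool) → ℝ) : ℝ :=
  PMaux K n Φ fun _ => false

section PM

variable {A : Fin n → Finset (Fin n)} {K : Fin n → (Fin n → Bool) → Bool → ℝ}

theorem PMaux_add (m : ℕ) : ∀ Φ Ψ : (Fin n → Bool) → ℝ,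
    PMaux K m (fun X => Φ X + Ψ X) = fun X => PMaux K m Φ X + PMaux K m Ψ X := by
  induction m with
  | zero => intro Φ Ψ; rfl
  | succ m ih =>
    intro Φ Ψ
    by_cases h : m < n
    · simp only [PMaux, dif_pos h]
      rw [Sop_add, ih]
    · simp only [PMaux, dif_neg h]
      rw [ih]

theorem PMaux_smul (m : ℕ) : ∀ (c : ℝ) (Φ : (Fin n → Bool) → ℝ),
    PMaux K m (fun X => c * Φ X) = fun X => c * PMaux K m Φ X := by
  induction m with
  | zero => intro c Φ; rfl
  | succ m ih =>
    intro c Φ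
    by_cases h : m < n
    · simp only [PMaux, dif_pos h]
      rw [Sop_smul, ih]
    · simp only [PMaux, dif_neg h]
      rw [ih]

theorem PMaux_nonneg (hK : Ker A K) (m : ℕ) : ∀ Φ : (Fin n → Bool) → ℝ, (∀ X, 0 ≤ Φ X) →
    ∀ X, 0 ≤ PMaux K m Φ X := by
  induction m with
  | zero => intro Φ h; exact h
  | succ m ih =>
    intro Φ h0
    by_cases h : m < n
    · simp only [PMaux, dif_pos h]
      exact ih _ (Sop_nonneg hK _ h0)
    · simp only [PMaux, dif_neg h]
      exact ih _ h0

theorem PMaux_const (hK : Ker A K) (m : ℕ) (c : ℝ) :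
    PMaux K m (fun _ => c) = fun _ => c := by
  induction m with
  | zero => rfl
  | succ m ih =>
    by_cases h : m < n
    · simp only [PMaux, dif_pos h]
      rw [Sop_of_noDep hK _ (fun _ _ => rfl), ih]
    · simp only [PMaux, dif_neg h]
      exact ih

theorem PM_add (Φ Ψ : (Fin n → Bool) → ℝ) : PM K (fun X => Φ X + Ψ X) = PM K Φ + PM K Ψ := by
  unfold PM; rw [PMaux_add]

theorem PM_smul (c : ℝ) (Φ : (Fin n → Bool) → ℝ) : PM K (fun X => c * Φ X) = c * PM K Φ := by
  unfold PM; rw [PMaux_smul]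

theorem PM_const (hK : Ker A K) (c : ℝ) : PM K (fun _ => c) = c := by
  unfold PM; rw [PMaux_const hK]

theorem PM_nonneg (hK : Ker A K) {Φ : (Fin n → Bool) → ℝ} (h : ∀ X, 0 ≤ Φ X) : 0 ≤ PM K Φ :=
  PMaux_nonneg hK n Φ h _

theorem PM_sum {ι : Type} (s : Finset ι) (Φ : ι → (Fin n → Bool) → ℝ) :
    PM K (fun X => ∑ i ∈ s, Φ i X) = ∑ i ∈ s, PM K (Φ i) := by
  classical
  induction s using Finset.induction_on with
  | empty =>
    simp only [Finset.sum_empty]
    have := PM_smul (K := K) 0 (fun _ => (0 : ℝ))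
    simpa using this
  | insert a s ha ih =>
    simp only [Finset.sum_insert ha]
    rw [PM_add, ih]

/-- the weights of the law -/
noncomputable def PW (K : Fin n → (Fin n → Bool) → Bool → ℝ) (X : Fin n → Bool) : ℝ :=
  PM K fun Y => if Y = X then 1 else 0

theorem PM_eq_Ex (Φ : (Fin n → Bool) → ℝ) : PM K Φ = Ex (PW K) Φ := by
  have h1 : Φ = fun Y => ∑ X, Φ X * (if Y = X then 1 else 0) := by
    funext Y
    simp
  conv_lhs => rw [h1]
  rw [PM_sum]
  unfold Ex PW
  refine Finset.sum_congr rfl fun X _ => ?_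
  rw [PM_smul, mul_comm]

theorem PW_isLaw (hK : Ker A K) : IsLaw (PW K) := by
  refine ⟨fun X => PM_nonneg hK fun Y => by split_ifs <;> norm_num, ?_⟩
  have h1 := PM_eq_Ex (K := K) fun _ => 1
  rw [PM_const hK] at h1
  unfold Ex at h1
  simpa using h1.symm

end PM

/-! ### The tree -/

/-- an elimination tree on `Fin n` -/
structure Elim (n : ℕ) where
  A : Fin n → Finset (Fin n)
  par : Fin n → Fin n
  lt : ∀ t, ∀ a ∈ A t, a < t
  par_le : ∀ t, par t ≤ t
  root : ∀ t, par t = t → A t = ∅
  sub : ∀ t, A t ⊆ insert (par t) (A (par t))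

namespace Elim

variable (E : Elim n)

/-- the bag -/
def B (t : Fin n) : Finset (Fin n) := insert t (E.A t)

/-- `v` is introduced in the subtree of `t` -/
def Desc (t v : Fin n) : Prop := ∃ j : ℕ, E.par^[j] v = t

theorem Desc.refl (t : Fin n) : E.Desc t t := ⟨0, rfl⟩

variable {E}

theorem Desc.trans {a b c : Fin n} (h1 : E.Desc a b) (h2 : E.Desc b c) : E.Desc a c := by
  obtain ⟨i, hi⟩ := h1
  obtain ⟨j, hj⟩ := h2
  exact ⟨i + j, by rw [Function.iterate_add_apply, hj, hi]⟩

theorem Desc.par {a b : Fin n} (h : E.Desc a (E.par b)) : E.Desc a b := by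
  obtain ⟨i, hi⟩ := h
  exact ⟨i + 1, by rw [Function.iterate_succ_apply, hi]⟩

theorem Desc.le {a b : Fin n} (h : E.Desc a b) : a ≤ b := by
  obtain ⟨i, hi⟩ := h
  induction i generalizing b with
  | zero => exact hi.symm.le
  | succ i ih =>
    rw [Function.iterate_succ_apply] at hi
    exact (ih hi).trans (E.par_le b)

/-- the adhesion consists of ancestors -/
theorem desc_of_mem {a t : Fin n} (h : a ∈ E.A t) : E.Desc a t := by
  induction t using WellFoundedLT.induction with
  | ind t ih =>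
    have hne : E.par t ≠ t := by
      intro e
      rw [E.root t e] at h
      simp at h
    have hlt : E.par t < t := lt_of_le_of_ne (E.par_le t) hne
    rcases Finset.mem_insert.1 (E.sub t h) with h1 | h1
    · rw [h1]
      exact Desc.par (Desc.refl E _)
    · exact Desc.par (ih _ hlt h1)

/-- outside the subtree of `t` -/
def Out (E : Elim n) (t : Fin n) : Set (Fin n) := {v | ¬ E.Desc t v}

theorem A_sub_out {t v : Fin n} (hv : v ∈ E.Out t) : ↑(E.A v) ⊆ E.Out t := by
  intro a ha hta
  exact hv (hta.trans (desc_of_mem (Finset.mem_coe.1 ha)))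

theorem A_sub_out_self (t : Fin n) : ↑(E.A t) ⊆ E.Out t := by
  intro a ha hta
  have h1 := hta.le
  exact absurd (E.lt t a (Finset.mem_coe.1 ha)) (not_lt.2 h1)

end Elim

/-! ### The key identity -/

section key

variable {E : Elim n} {K : Fin n → (Fin n → Bool) → Bool → ℝ}

open Elim

theorem Sop_out (hK : Ker E.A K) {t m : Fin n} {F : (Fin n → Bool) → ℝ}
    (hF : DepOn (E.Out t) F) : DepOn (E.Out t) (Sop K m F) := by
  by_cases hm : m ∈ E.Out t
  · refine Sop_dep hK (A_sub_out hm) (hF.mono ?_)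
    exact Set.subset_insert _ _
  · rw [Sop_of_noDep hK m fun X b => hF.update hm X b]
    exact hF

/-- **Key identity**: a function of the bag of `t` may be averaged over the new coordinate. -/
theorem PM_key (hK : Ker E.A K) {t : Fin n} {F h : (Fin n → Bool) → ℝ}
    (hF : DepOn (E.Out t) F) (hh : DepOn (E.B t : Set (Fin n)) h) :
    PM K (fun X => F X * h X) = PM K fun X => F X * Sop K t h X := by
  have hh1 : DepOn (insert t (E.A t : Set (Fin n))) h := by
    refine hh.mono ?_
    rw [Elim.B, Finset.coe_insert]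
  have hS : DepOn (E.A t : Set (Fin n)) (Sop K t h) := Sop_dep hK subset_rfl hh1
  have key : ∀ m : ℕ, t.val + 1 ≤ m → m ≤ n → ∀ F : (Fin n → Bool) → ℝ, DepOn (E.Out t) F →
      PMaux K m (fun X => F X * h X) = PMaux K m fun X => F X * Sop K t h X := by
    intro m hm
    induction m, hm using Nat.le_induction with
    | base =>
      intro hn F hF
      have ht : t.val < n := t.isLt
      simp only [PMaux, dif_pos ht]
      have hFt : ∀ X b, F (update X t b) = F X := fun X b =>
        hF.update (fun h => h (Desc.refl E t)) X b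
      have htt : (⟨t.val, ht⟩ : Fin n) = t := rfl
      rw [htt, Sop_mul_left hK t hFt, Sop_mul_left hK t hFt]
      have hSt : Sop K t (Sop K t h) = Sop K t h := by
        refine Sop_of_noDep hK t fun X b => hS.update ?_ X b
        intro hta
        exact lt_irrefl _ (E.lt t t (Finset.mem_coe.1 hta))
      rw [hSt]
    | succ m hm ih =>
      intro hmn F hF
      have hm' : m < n := hmn
      simp only [PMaux, dif_pos hm']
      have htm : t < (⟨m, hm'⟩ : Fin n) := hm
      have hh2 : ∀ X b, h (update X ⟨m, hm'⟩ b) = h X := fun X b => hh1.update (by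
        rintro (e | e)
        · rw [e] at htm; exact lt_irrefl _ htm
        · exact lt_asymm htm (E.lt t _ (Finset.mem_coe.1 e))) X b
      have hS2 : ∀ X b, Sop K t h (update X ⟨m, hm'⟩ b) = Sop K t h X := fun X b =>
        hS.update (fun e => lt_asymm htm (E.lt t _ (Finset.mem_coe.1 e))) X b
      rw [Sop_mul_right hK _ hh2, Sop_mul_right hK _ hS2]
      exact ih (by omega) _ (Sop_out hK hF)
  unfold PM
  rw [key n t.isLt le_rfl F hF]

end key

end Vale.Agent.P235.H684
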